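import Vale.Agent.P299.H996.Torus2

/-!
# T1: projective unitary representations of abelian groups are diagonal on a finite index subgroup
-/

namespace Vale.Agent.P299.H996

open Topology Set Module

noncomputable section

section common

variable {V : Type*} [AddCommGroup V] [Module ℂ V] [FiniteDimensional ℂ V]

/-- Commuting endomorphisms have a common eigenvector in every nonzero invariant subspace. -/
theorem exists_common_eigenvector {α : Type*} (f : α → V →ₗ[ℂ] V)
    (hf : ∀ a b x, f a (f b x) = f b (f a x)) (W₀ : Submodule ℂ V) (hW₀ : W₀ ≠ ⊥)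
    (hinv : ∀ a, ∀ x ∈ W₀, f a x ∈ W₀) :
    ∃ v ∈ W₀, v ≠ 0 ∧ ∀ a, ∃ c : ℂ, f a v = c • v := by
  let P : Set (Submodule ℂ V) := {W | W ≤ W₀ ∧ W ≠ ⊥ ∧ ∀ a, ∀ x ∈ W, f a x ∈ W}
  have hP : P.Nonempty := ⟨W₀, le_rfl, hW₀, hinv⟩
  obtain ⟨W, hW, hmin⟩ := WellFounded.has_min (wellFounded_lt (α := Submodule ℂ V)) P hP
  obtain ⟨hWW₀, hWne, hWinv⟩ := hW
  obtain ⟨v, hvW, hv0⟩ := Submodule.exists_mem_ne_zero_of_ne_bot hWne
  refine ⟨v, hWW₀ hvW, hv0, fun a => ?_⟩
  have : Nontrivial W := Submodule.nontrivial_iff_ne_bot.2 hWne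
  let g : W →ₗ[ℂ] W := (f a).restrict (hWinv a)
  obtain ⟨c, hc⟩ := Module.End.exists_eigenvalue g
  obtain ⟨w, hw⟩ := hc.exists_hasEigenvector
  refine ⟨c, ?_⟩
  let E : Submodule ℂ V := W ⊓ Module.End.eigenspace (f a) c
  have hE : E ∈ P := by
    refine ⟨inf_le_left.trans hWW₀, ?_, ?_⟩
    · intro h
      have hwE : (w : V) ∈ E := by
        refine ⟨w.2, ?_⟩
        rw [SetLike.mem_coe, Module.End.mem_eigenspace_iff]
        have := hw.apply_eq_smul
        exact congrArg Subtype.val this
      rw [h, Submodule.mem_bot] at hwE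
      exact hw.2 (Subtype.ext hwE)
    · rintro b x ⟨hxW, hx⟩
      refine ⟨hWinv b x hxW, ?_⟩
      rw [SetLike.mem_coe, Module.End.mem_eigenspace_iff] at hx ⊢
      rw [hf, hx, map_smul]
  have hEW : E = W := by
    by_contra hne
    exact hmin E hE (lt_of_le_of_ne inf_le_left hne)
  have : v ∈ E := by rw [hEW]; exact hvW
  exact Module.End.mem_eigenspace_iff.1 this.2

end common

section unitary

variable {V : Type*} [NormedAddCommGroup V] [InnerProductSpace ℂ V]

/-- Commuting unitary operators have a common orthonormal eigenbasis. -/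
theorem exists_orthonormalBasis_common [FiniteDimensional ℂ V] {α : Type*} (U : α → V ≃ₗᵢ[ℂ] V)
    (hU : ∀ a b x, U a (U b x) = U b (U a x)) :
    ∃ b : OrthonormalBasis (Fin (finrank ℂ V)) ℂ V, ∀ a i, ∃ c : ℂ, U a (b i) = c • b i := by
  have key : ∀ k : ℕ, k ≤ finrank ℂ V → ∃ v : Fin k → V, Orthonormal ℂ v ∧
      ∀ a i, ∃ c : ℂ, U a (v i) = c • v i := by
    intro k
    induction k with
    | zero => exact fun _ => ⟨Fin.elim0, ⟨fun i => i.elim0, fun i => i.elim0⟩, fun a i => i.elim0⟩
    | succ k ih =>
      intro hk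
      obtain ⟨v, hv, hvU⟩ := ih (by omega)
      let W : Submodule ℂ V := (Submodule.span ℂ (range v))ᗮ
      have hW : W ≠ ⊥ := by
        intro h
        have h1 : Submodule.span ℂ (range v) = ⊤ := by
          rwa [Submodule.orthogonal_eq_bot_iff] at h
        have h2 : finrank ℂ (Submodule.span ℂ (range v)) ≤ k := by
          have := finrank_range_le_card (R := ℂ) v
          rw [Fintype.card_fin] at this
          exact this
        rw [h1, finrank_top] at h2
        omega
      have hmem : ∀ x, x ∈ W ↔ ∀ i, inner ℂ (v i) x = 0 := by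
        intro x
        rw [Submodule.mem_orthogonal]
        constructor
        · intro h i
          exact h _ (Submodule.subset_span ⟨i, rfl⟩)
        · intro h u hu
          induction hu using Submodule.span_induction with
          | mem y hy => obtain ⟨i, rfl⟩ := hy; exact h i
          | zero => simp
          | add y z _ _ hy hz => rw [inner_add_left, hy, hz, add_zero]
          | smul c y _ hy => rw [inner_smul_left, hy, mul_zero]
      have hWinv : ∀ a, ∀ x ∈ W, (U a).toLinearEquiv.toLinearMap x ∈ W := by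
        intro a x hx
        rw [hmem] at hx ⊢
        intro i
        obtain ⟨c, hc⟩ := hvU a i
        have hc0 : c ≠ 0 := by
          rintro rfl
          rw [zero_smul] at hc
          have : v i = 0 := (U a).map_eq_zero_iff.1 hc
          exact hv.ne_zero i this
        have h1 : inner ℂ (U a (v i)) (U a x) = inner ℂ (v i) x := (U a).inner_map_map _ _
        rw [hx i, hc, inner_smul_left] at h1
        have h2 : (starRingEnd ℂ) c ≠ 0 := by simpa using hc0
        exact (mul_eq_zero.1 h1).resolve_left h2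
      obtain ⟨w, hwW, hw0, hw⟩ := exists_common_eigenvector
        (fun a => (U a).toLinearEquiv.toLinearMap) (fun a b x => hU a b x) W hW hWinv
      let w' : V := ((‖w‖⁻¹ : ℝ) : ℂ) • w
      have hw'1 : ‖w'‖ = 1 := by
        rw [norm_smul, Complex.norm_real, norm_inv, norm_norm]
        exact inv_mul_cancel₀ (norm_ne_zero_iff.2 hw0)
      have hw'W : w' ∈ W := W.smul_mem _ hwW
      refine ⟨Fin.snoc v w', ?_, ?_⟩
      · rw [orthonormal_iff_ite]
        have hvv := orthonormal_iff_ite.1 hv
        intro i j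
        refine Fin.lastCases ?_ (fun i => ?_) i <;> refine Fin.lastCases ?_ (fun j => ?_) j
        · simp [hw'1]
        · simp only [Fin.snoc_last, Fin.snoc_castSucc]
          rw [← inner_conj_symm, (hmem _).1 hw'W j]
          simp [(Fin.castSucc_ne_last j).symm]
        · simp only [Fin.snoc_last, Fin.snoc_castSucc]
          rw [(hmem _).1 hw'W i]
          simp [Fin.castSucc_ne_last]
        · simp only [Fin.snoc_castSucc]
          rw [hvv]
          simp
      · intro a i
        refine Fin.lastCases ?_ (fun i => ?_) i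
        · obtain ⟨c, hc⟩ := hw a
          refine ⟨c, ?_⟩
          simp only [Fin.snoc_last]
          show U a (((‖w‖⁻¹ : ℝ) : ℂ) • w) = _
          have hc' : U a w = c • w := hc
          rw [map_smul, hc', smul_comm]
        · simpa using hvU a i
  obtain ⟨v, hv, hvU⟩ := key (finrank ℂ V) le_rfl
  have hspan : ⊤ ≤ Submodule.span ℂ (range v) := by
    rw [hv.linearIndependent.span_eq_top_of_card_eq_finrank' (by simp)]
  refine ⟨OrthonormalBasis.mk hv hspan, fun a i => ?_⟩
  simpa using hvU a i

/-- The operator with eigenvalue `c i` on the basis vector `b i`. -/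
def diagLin {n : ℕ} (b : OrthonormalBasis (Fin n) ℂ V) (c : Fin n → ℂ) : V →ₗ[ℂ] V :=
  b.toBasis.constr ℂ fun i => c i • b i

theorem diagLin_basis {n : ℕ} (b : OrthonormalBasis (Fin n) ℂ V) (c : Fin n → ℂ) (i : Fin n) :
    diagLin b c (b i) = c i • b i := by
  have := b.toBasis.constr_basis ℂ (fun i => c i • b i) i
  rwa [b.coe_toBasis] at this

theorem diagLin_apply {n : ℕ} (b : OrthonormalBasis (Fin n) ℂ V) (c : Fin n → ℂ) (v : V) :
    diagLin b c v = ∑ i, (c i * b.repr v i) • b i := by
  conv_lhs => rw [← b.sum_repr v]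
  rw [map_sum]
  refine Finset.sum_congr rfl fun i _ => ?_
  rw [map_smul, diagLin_basis, smul_smul, mul_comm]

theorem repr_diagLin {n : ℕ} (b : OrthonormalBasis (Fin n) ℂ V) (c : Fin n → ℂ) (v : V)
    (i : Fin n) : b.repr (diagLin b c v) i = c i * b.repr v i := by
  rw [diagLin_apply, map_sum]
  simp only [map_smul, b.repr_self]
  rw [WithLp.ofLp_sum, Finset.sum_apply, Finset.sum_eq_single i]
  · simp
  · intro j _ hj
    simp [Ne.symm hj]
  · simp

theorem linearMap_ext_basis {n : ℕ} (b : OrthonormalBasis (Fin n) ℂ V) {f g : V →ₗ[ℂ] V}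
    (h : ∀ i, f (b i) = g (b i)) : f = g :=
  b.toBasis.ext fun i => by rw [b.coe_toBasis]; exact h i

/-- The unitary operator with eigenvalue `c i` on the basis vector `b i`. -/
def diagU {n : ℕ} (b : OrthonormalBasis (Fin n) ℂ V) (c : Fin n → Circle) : V ≃ₗᵢ[ℂ] V :=
  { toLinearEquiv := LinearEquiv.ofLinearMap
      (diagLin b fun i => (c i : ℂ)) (diagLin b fun i => ((c i)⁻¹ : Circle))
      (linearMap_ext_basis b fun i => by
        simp [diagLin_basis, smul_smul])
      (linearMap_ext_basis b fun i => by
        simp [diagLin_basis, smul_smul])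
    norm_map' := fun v => by
      show ‖diagLin b (fun i => (c i : ℂ)) v‖ = ‖v‖
      rw [← b.repr.norm_map, ← b.repr.norm_map v, EuclideanSpace.norm_eq, EuclideanSpace.norm_eq]
      congr 1
      refine Finset.sum_congr rfl fun i _ => ?_
      rw [repr_diagLin, norm_mul, Circle.norm_coe, one_mul] }

theorem diagU_apply {n : ℕ} (b : OrthonormalBasis (Fin n) ℂ V) (c : Fin n → Circle) (v : V) :
    diagU b c v = ∑ i, ((c i : ℂ) * b.repr v i) • b i := diagLin_apply b _ v

theorem diagU_basis {n : ℕ} (b : OrthonormalBasis (Fin n) ℂ V) (c : Fin n → Circle) (i : Fin n) :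
    diagU b c (b i) = (c i : ℂ) • b i := diagLin_basis b _ i

theorem diagU_mul {n : ℕ} (b : OrthonormalBasis (Fin n) ℂ V) (c d : Fin n → Circle) (v : V) :
    diagU b (c * d) v = diagU b c (diagU b d v) := by
  have : diagLin b (fun i => ((c i * d i : Circle) : ℂ)) =
      (diagLin b fun i => (c i : ℂ)) ∘ₗ (diagLin b fun i => (d i : ℂ)) := by
    refine linearMap_ext_basis b fun i => ?_
    simp [diagLin_basis, smul_smul, mul_comm]
  exact LinearMap.congr_fun this v

theorem diagU_one {n : ℕ} (b : OrthonormalBasis (Fin n) ℂ V) (v : V) :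
    diagU b 1 v = v := by
  rw [diagU_apply]
  simpa using b.sum_repr v

theorem continuous_diagU {n s : ℕ} (b : OrthonormalBasis (Fin n) ℂ V) (B : Fin n → Fin s → ℤ)
    (v : V) : Continuous fun z : Fin s → Circle => diagU b (fun i => chi (B i) z) v := by
  simp only [diagU_apply]
  refine continuous_finsetSum _ fun i _ => Continuous.smul ?_ continuous_const
  exact (continuous_subtype_val.comp (continuous_chi (B i))).mul continuous_const

/-- **T1, commutator pairing.** A projective unitary representation of an abelian group commutes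
on a finite index subgroup. -/
theorem exists_finiteIndex_commuting [FiniteDimensional ℂ V] {Γ : Type*} [CommGroup Γ] (U : Γ → V ≃ₗᵢ[ℂ] V)
    (hU : ∀ g h, ∃ c : ℂ, ∀ v, U g (U h v) = c • U (g * h) v) :
    ∃ Γ₁ : Subgroup Γ, Γ₁.FiniteIndex ∧ ∀ g ∈ Γ₁, ∀ h v, U g (U h v) = U h (U g v) := by
  rcases subsingleton_or_nontrivial V with hV | hV
  · exact ⟨⊤, inferInstance, fun g _ h v => Subsingleton.elim _ _⟩
  obtain ⟨v₀, hv₀⟩ := exists_ne (0 : V)
  choose c hc using hU
  have hne : ∀ g h, U g (U h v₀) ≠ 0 := fun g h => by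
    simpa using hv₀
  have hex : ∀ g h, ∃ β : Circle, ∀ v, U g (U h v) = (β : ℂ) • U h (U g v) := by
    intro g h
    have hc0 : c h g ≠ 0 := by
      intro h0
      have := hc h g v₀
      rw [h0, zero_smul] at this
      exact hne h g this
    have hform : ∀ v, U g (U h v) = (c g h / c h g) • U h (U g v) := by
      intro v
      rw [hc g h, hc h g, smul_smul, div_mul_cancel₀ _ hc0, mul_comm g h]
    have hnorm : ‖c g h / c h g‖ = 1 := by
      have h1 := congrArg norm (hform v₀)
      rw [norm_smul] at h1
      simp only [LinearIsometryEquiv.norm_map] at h1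
      have h2 : ‖v₀‖ ≠ 0 := norm_ne_zero_iff.2 hv₀
      field_simp at h1
      exact h1.symm
    exact ⟨⟨c g h / c h g, mem_sphere_zero_iff_norm.2 hnorm⟩, hform⟩
  choose β hβ using hex
  -- uniqueness
  have huniq : ∀ (g h : Γ) (z : ℂ), U g (U h v₀) = z • U h (U g v₀) → z = β g h := by
    intro g h z hz
    rw [hβ g h v₀] at hz
    exact (smul_left_injective ℂ (hne h g) hz).symm
  have hc0 : ∀ g h, c g h ≠ 0 := by
    intro g h h0
    have := hc g h v₀
    rw [h0, zero_smul] at this
    exact hne g h this
  have hmul1 : ∀ g g' h, β (g * g') h = β g h * β g' h := by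
    intro g g' h
    apply Circle.ext
    refine (huniq (g * g') h _ ?_).symm
    have h1 : c g g' • U (g * g') (U h v₀) =
        c g g' • (((β g h * β g' h : Circle) : ℂ) • U h (U (g * g') v₀)) := by
      calc c g g' • U (g * g') (U h v₀) = U g (U g' (U h v₀)) := (hc g g' _).symm
        _ = U g ((β g' h : ℂ) • U h (U g' v₀)) := by rw [hβ g' h]
        _ = (β g' h : ℂ) • (β g h : ℂ) • U h (U g (U g' v₀)) := by rw [map_smul, hβ g h]
        _ = (β g' h : ℂ) • (β g h : ℂ) • U h (c g g' • U (g * g') v₀) := by rw [hc g g' v₀]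
        _ = _ := by
          rw [map_smul, smul_comm (β g h : ℂ), smul_comm (β g' h : ℂ), smul_smul (β g' h : ℂ),
            mul_comm (β g' h : ℂ), Circle.coe_mul]
    exact smul_right_injective V (hc0 g g') h1
  have hinv : ∀ g h, β g h * β h g = 1 := by
    intro g h
    have h1 : U g (U h v₀) = (((β g h * β h g : Circle)) : ℂ) • U g (U h v₀) := by
      conv_lhs => rw [hβ g h, hβ h g, smul_smul, ← Circle.coe_mul]
    have h2 : (1 : ℂ) • U g (U h v₀) = (((β g h * β h g : Circle)) : ℂ) • U g (U h v₀) := by
      rw [one_smul]; exact h1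
    exact Circle.ext (smul_left_injective ℂ (hne g h) h2).symm
  have hmul2 : ∀ h g g', β h (g * g') = β h g * β h g' := by
    intro h g g'
    have e : ∀ a, β h a = (β a h)⁻¹ := fun a => eq_inv_of_mul_eq_one_left (hinv h a)
    rw [e, e, e, hmul1, mul_inv]
  let B : Γ →* (Γ →* Circle) := MonoidHom.mk' (fun g => MonoidHom.mk' (fun h => β h g)
    fun a b => hmul1 a b g) (fun g g' => by
      ext h
      simp [hmul2])
  have hB : ∀ g h, B g h = β h g := fun g h => rfl
  -- linear independence
  have hfin : Finite B.range := by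
    choose rep hrep using fun χ : B.range => χ.2
    have hli : LinearIndependent ℂ fun χ : B.range => (U (rep χ)).toLinearEquiv.toLinearMap := by
      rw [linearIndependent_iff']
      intro s a hs χ hχ
      have h1 : ∀ (h : Γ) (w : V), ∑ ψ ∈ s, a ψ • (((ψ : Γ →* Circle) h : ℂ) • U (rep ψ) w) = 0 := by
        intro h w
        obtain ⟨v, rfl⟩ := (U h).surjective w
        have h2 : (∑ ψ ∈ s, a ψ • (U (rep ψ)).toLinearEquiv.toLinearMap) v = 0 := by
          rw [hs]; rfl
        rw [LinearMap.sum_apply] at h2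
        have h3 : U h (∑ ψ ∈ s, a ψ • U (rep ψ) v) = 0 := by
          rw [show (∑ ψ ∈ s, a ψ • U (rep ψ) v) = 0 from h2, map_zero]
        rw [map_sum] at h3
        rw [← h3]
        refine Finset.sum_congr rfl fun ψ _ => ?_
        rw [map_smul, hβ h (rep ψ), ← hB, hrep]
      have h2 : ∀ u w : V, ∑ ψ ∈ s, (a ψ * inner ℂ u (U (rep ψ) w)) •
          (fun h => ((((ψ : Γ →* Circle) h : Circle) : ℂ)) : Γ → ℂ) = 0 := by
        intro u w
        ext h
        have := congrArg (inner ℂ u) (h1 h w)
        rw [inner_sum, inner_zero_right] at this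
        rw [Finset.sum_apply, Pi.zero_apply, ← this]
        refine Finset.sum_congr rfl fun ψ _ => ?_
        rw [inner_smul_right, inner_smul_right, Pi.smul_apply, smul_eq_mul]
        ring
      have h3 : LinearIndependent ℂ fun ψ : B.range =>
          (fun h => ((((ψ : Γ →* Circle) h : Circle) : ℂ)) : Γ → ℂ) := by
        have := (linearIndependent_monoidHom Γ ℂ).comp
          (fun ψ : B.range => Circle.coeHom.comp (ψ : Γ →* Circle)) (by
            intro ψ ψ' h
            apply Subtype.ext
            ext x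
            exact congrArg (fun f => f x) h)
        exact this
      rw [linearIndependent_iff'] at h3
      have h4 := h3 s _ (h2 (U (rep χ) v₀) v₀) χ hχ
      have h5 : inner ℂ (U (rep χ) v₀) (U (rep χ) v₀) ≠ 0 := by
        simpa using hv₀
      exact (mul_eq_zero.1 h4).resolve_right h5
    exact hli.finite
  refine ⟨B.ker, inferInstance, fun g hg h v => ?_⟩
  have h1 : B g h = 1 := by
    have : B g = 1 := hg
    rw [this]; rfl
  rw [hβ g h, eq_inv_of_mul_eq_one_left (hinv g h), ← hB, h1]
  simp

end unitary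

end

end Vale.Agent.P299.H996
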