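import Mathlib

/-!
# Monomial characters of the compact torus `ι → Circle`, and density of subgroups

`chi k z = ∏ i, z i ^ k i`.  A subgroup of the torus with trivial annihilator is dense.
-/

namespace Vale.Agent.P299.H996

open MeasureTheory Topology Set

noncomputable section

variable {ι : Type*} [Fintype ι]

/-- The monomial character `z ↦ ∏ z_i ^ k_i`. -/
def chi (k : ι → ℤ) : (ι → Circle) →* Circle where
  toFun z := ∏ i, z i ^ k i
  map_one' := by simp
  map_mul' a b := by simp [mul_zpow, Finset.prod_mul_distrib]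

theorem chi_apply (k : ι → ℤ) (z : ι → Circle) : chi k z = ∏ i, z i ^ k i := rfl

theorem chi_zero (z : ι → Circle) : chi (0 : ι → ℤ) z = 1 := by simp [chi_apply]

theorem chi_add (k l : ι → ℤ) (z : ι → Circle) : chi (k + l) z = chi k z * chi l z := by
  simp [chi_apply, zpow_add, Finset.prod_mul_distrib]

theorem chi_neg (k : ι → ℤ) (z : ι → Circle) : chi (-k) z = (chi k z)⁻¹ := by
  simp [chi_apply]

theorem chi_zsmul (m : ℤ) (k : ι → ℤ) (z : ι → Circle) : chi (m • k) z = (chi k z) ^ m := by
  simp [chi_apply, mul_comm m, zpow_mul, Finset.prod_zpow]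

theorem chi_sub (k l : ι → ℤ) (z : ι → Circle) : chi (k - l) z = chi k z / chi l z := by
  rw [sub_eq_add_neg, chi_add, chi_neg, div_eq_mul_inv]

theorem chi_single [DecidableEq ι] (i : ι) (z : ι → Circle) : chi (Pi.single i 1) z = z i := by
  rw [chi_apply, Finset.prod_eq_single i]
  · simp
  · intro j _ hj
    simp [Pi.single_eq_of_ne hj]
  · simp

theorem continuous_chi (k : ι → ℤ) : Continuous (chi k : (ι → Circle) → Circle) := by
  show Continuous fun z : ι → Circle => ∏ i, z i ^ k i
  exact continuous_finsetProd _ fun i _ => (continuous_apply i).zpow (k i)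

/-- The monomial characters as continuous functions. -/
def cchi (k : ι → ℤ) : C(ι → Circle, ℂ) where
  toFun z := (chi k z : ℂ)
  continuous_toFun := continuous_subtype_val.comp (continuous_chi k)

theorem cchi_apply (k : ι → ℤ) (z : ι → Circle) : cchi k z = (chi k z : ℂ) := rfl

variable (ι) in
/-- The star subalgebra generated by the characters. -/
def chiAlg : StarSubalgebra ℂ C(ι → Circle, ℂ) where
  toSubalgebra := Algebra.adjoin ℂ (range (cchi (ι := ι)))
  star_mem' := by
    change Algebra.adjoin ℂ (range (cchi (ι := ι))) ≤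
      star (Algebra.adjoin ℂ (range (cchi (ι := ι))))
    refine Algebra.adjoin_le ?_
    rintro _ ⟨n, rfl⟩
    refine Algebra.subset_adjoin ⟨-n, ?_⟩
    ext1 x
    simp only [cchi_apply, chi_neg, ContinuousMap.star_apply, Circle.coe_inv_eq_conj,
      starRingEnd_apply]

theorem chiAlg_coe :
    (chiAlg ι).toSubalgebra.toSubmodule = Submodule.span ℂ (range (cchi (ι := ι))) := by
  apply Algebra.adjoin_eq_span_of_subset
  refine .trans (fun x ↦ Submonoid.closure_induction (fun _ ↦ id) ⟨0, ?_⟩ ?_)
    Submodule.subset_span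
  · ext z
    simp [cchi_apply, chi_zero]
  · rintro _ _ _ _ ⟨m, rfl⟩ ⟨n, rfl⟩
    refine ⟨m + n, ?_⟩
    ext z
    simp [cchi_apply, chi_add]

theorem chiAlg_separatesPoints : (chiAlg ι).SeparatesPoints := by
  classical
  intro x y hxy
  rw [Ne, funext_iff, not_forall] at hxy
  obtain ⟨i, hi⟩ := hxy
  refine ⟨_, ⟨cchi (Pi.single i 1), Algebra.subset_adjoin ⟨Pi.single i 1, rfl⟩, rfl⟩, ?_⟩
  simp only [cchi_apply, chi_single]
  exact fun h => hi (Circle.ext h)

theorem span_cchi_closure_eq_top :
    (Submodule.span ℂ (range (cchi (ι := ι)))).topologicalClosure = ⊤ := by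
  rw [← chiAlg_coe]
  exact congr_arg (Subalgebra.toSubmodule <| StarSubalgebra.toSubalgebra ·)
    (ContinuousMap.starSubalgebra_topologicalClosure_eq_top_of_separatesPoints _
      chiAlg_separatesPoints)

/-- Two continuous functionals on `C(torus)` agreeing on characters agree. -/
theorem clm_eq_of_eq_on_chi {Λ Λ' : C(ι → Circle, ℂ) →L[ℂ] ℂ}
    (h : ∀ k : ι → ℤ, Λ (cchi k) = Λ' (cchi k)) : Λ = Λ' := by
  refine ContinuousLinearMap.ext_on (s := range (cchi (ι := ι))) ?_ ?_
  · have := span_cchi_closure_eq_top (ι := ι)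
    intro x
    have hx : x ∈ (Submodule.span ℂ (range (cchi (ι := ι)))).topologicalClosure := by
      rw [this]; trivial
    exact hx
  · rintro _ ⟨k, rfl⟩
    exact h k

/-- A nontrivial continuous unitary character of a compact group has vanishing mean. -/
theorem integral_char_eq_zero {K : Type*} [Group K] [TopologicalSpace K] [IsTopologicalGroup K]
    [CompactSpace K] [MeasurableSpace K] [BorelSpace K] (ν : Measure K) [ν.IsMulLeftInvariant]
    (χ : K →* Circle) {g : K} (hg : χ g ≠ 1) : ∫ x, (χ x : ℂ) ∂ν = 0 := by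
  have h1 : ∫ x, (χ (g * x) : ℂ) ∂ν = ∫ x, (χ x : ℂ) ∂ν :=
    integral_mul_left_eq_self (fun x => (χ x : ℂ)) g
  have h2 : ∫ x, (χ (g * x) : ℂ) ∂ν = (χ g : ℂ) * ∫ x, (χ x : ℂ) ∂ν := by
    simp only [map_mul, Circle.coe_mul]
    exact integral_const_mul _ _
  rw [h2] at h1
  have h3 : ((χ g : ℂ) - 1) * ∫ x, (χ x : ℂ) ∂ν = 0 := by
    rw [sub_mul, h1, one_mul, sub_self]
  rcases mul_eq_zero.1 h3 with h | h
  · exact absurd (Circle.ext (by simpa [sub_eq_zero] using h)) hg
  · exact h

/-- **Kronecker's theorem.** A subgroup of the torus on which no nontrivial monomial character is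
trivial, is dense. -/
theorem dense_of_annihilator_trivial (H : Subgroup (ι → Circle))
    (hH : ∀ k : ι → ℤ, (∀ g ∈ H, chi k g = 1) → k = 0) : Dense (H : Set (ι → Circle)) := by
  classical
  set K : Subgroup (ι → Circle) := H.topologicalClosure with hK
  have hKc : IsClosed (K : Set (ι → Circle)) := H.isClosed_topologicalClosure
  have hHK : H ≤ K := H.le_topologicalClosure
  have : CompactSpace K := isCompact_iff_compactSpace.1 hKc.isCompact
  let _ : MeasurableSpace K := borel K
  have : BorelSpace K := ⟨rfl⟩
  let _ : MeasurableSpace (ι → Circle) := borel _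
  have : BorelSpace (ι → Circle) := ⟨rfl⟩
  let ν : Measure K := Measure.haarMeasure ⊤
  let μ : Measure (ι → Circle) := Measure.haarMeasure ⊤
  have : IsProbabilityMeasure ν := ⟨by
    have := Measure.haarMeasure_self (G := K) (K₀ := ⊤)
    simpa using this⟩
  have : IsProbabilityMeasure μ := ⟨by
    have := Measure.haarMeasure_self (G := ι → Circle) (K₀ := ⊤)
    simpa using this⟩
  -- the two functionals
  let Λ' : C(ι → Circle, ℂ) →L[ℂ] ℂ := 
    LinearMap.mkContinuous
      { toFun := fun f => ∫ x, f x ∂μ
        map_add' := fun f g => by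
          simp only [ContinuousMap.add_apply]
          exact integral_add (f.continuous.integrable_of_hasCompactSupport (HasCompactSupport.of_compactSpace _))
            (g.continuous.integrable_of_hasCompactSupport (HasCompactSupport.of_compactSpace _))
        map_smul' := fun c f => by
          simp only [ContinuousMap.smul_apply, RingHom.id_apply]
          exact integral_smul c _ } 1 (fun f => by
          simp only [LinearMap.coe_mk, AddHom.coe_mk, one_mul]
          calc ‖∫ x, f x ∂μ‖ ≤ ‖f‖ * μ.real univ :=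
                norm_integral_le_of_norm_le_const (Filter.Eventually.of_forall fun x => f.norm_coe_le_norm x)
            _ = ‖f‖ := by simp)
  let Λ : C(ι → Circle, ℂ) →L[ℂ] ℂ := 
    LinearMap.mkContinuous
      { toFun := fun f => ∫ x : K, f x ∂ν
        map_add' := fun f g => by
          simp only [ContinuousMap.add_apply]
          exact integral_add ((f.continuous.comp continuous_subtype_val).integrable_of_hasCompactSupport (HasCompactSupport.of_compactSpace _))
            ((g.continuous.comp continuous_subtype_val).integrable_of_hasCompactSupport (HasCompactSupport.of_compactSpace _))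
        map_smul' := fun c f => by
          simp only [ContinuousMap.smul_apply, RingHom.id_apply]
          exact integral_smul c _ } 1 (fun f => by
          simp only [LinearMap.coe_mk, AddHom.coe_mk, one_mul]
          calc ‖∫ x : K, f x ∂ν‖ ≤ ‖f‖ * ν.real univ :=
                norm_integral_le_of_norm_le_const (Filter.Eventually.of_forall fun x => f.norm_coe_le_norm x)
            _ = ‖f‖ := by simp)
  have hΛ : Λ = Λ' := by
    apply clm_eq_of_eq_on_chi
    intro k
    show ∫ x : K, (chi k (x : ι → Circle) : ℂ) ∂ν = ∫ x, (chi k x : ℂ) ∂μ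
    by_cases hk : k = 0
    · subst hk
      simp [chi_zero]
    · have : ¬ ∀ g ∈ H, chi k g = 1 := fun h => hk (hH k h)
      push Not at this
      obtain ⟨g, hgH, hg⟩ := this
      have e1 : ∫ x, (chi k x : ℂ) ∂μ = 0 := integral_char_eq_zero μ (chi k) hg
      have e2 : ∫ x : K, (((chi k).comp K.subtype) x : ℂ) ∂ν = 0 :=
        integral_char_eq_zero ν ((chi k).comp K.subtype) (g := ⟨g, hHK hgH⟩) hg
      rw [e1]
      exact e2
  have key : ∀ f : C(ι → Circle, ℂ), ∫ x : K, f x ∂ν = ∫ x, f x ∂μ := fun f => 
    congrArg (fun L => L f) hΛ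
  have hKtop : (K : Set (ι → Circle)) = univ := by
    by_contra hne
    obtain ⟨t₀, ht₀⟩ : ∃ t₀, t₀ ∉ (K : Set (ι → Circle)) := by
      by_contra h
      push Not at h
      exact hne (eq_univ_of_forall h)
    obtain ⟨f, hf0, hf1, hf⟩ := exists_continuous_zero_one_of_isClosed hKc
      (isClosed_singleton (x := t₀)) (by
        rw [Set.disjoint_singleton_right]; exact ht₀)
    let F : C(ι → Circle, ℂ) := ⟨fun x => (f x : ℂ), Complex.continuous_ofReal.comp f.continuous⟩
    have h1 := key F
    have h2 : ∫ x : K, F x ∂ν = 0 := by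
      have : ∀ x : K, F x = 0 := fun x => by
        show ((f x : ℝ) : ℂ) = 0
        rw [hf0 x.2]; simp
      simp [this]
    have h3 : ∫ x, F x ∂μ = ((∫ x, f x ∂μ : ℝ) : ℂ) := integral_ofReal
    have h4 : 0 < ∫ x, f x ∂μ := by
      refine f.continuous.integral_pos_of_hasCompactSupport_nonneg_nonzero
        (HasCompactSupport.of_compactSpace _) (fun x => (hf x).1) (x := t₀) ?_
      rw [hf1 rfl]; simp
    rw [h2, h3] at h1
    have : (∫ x, f x ∂μ : ℝ) = 0 := by exact_mod_cast h1.symm
    exact absurd this h4.ne'
  intro x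
  have : x ∈ (K : Set (ι → Circle)) := by rw [hKtop]; trivial
  exact this

end

end Vale.Agent.P299.H996
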