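import Vale.Agent.P299.H996.Torus

/-!
# T2: a homomorphism from a group to a torus, up to finite index, has dense image in a subtorus
-/

namespace Vale.Agent.P299.H996

open Topology Set

noncomputable section

variable {ι κ : Type*} [Fintype ι] [Fintype κ]

theorem chi_sum {α : Type*} (s : Finset α) (f : α → ι → ℤ) (z : ι → Circle) :
    chi (∑ a ∈ s, f a) z = ∏ a ∈ s, chi (f a) z := by
  classical
  induction s using Finset.induction_on with
  | empty => simp [chi_zero]
  | insert a s ha ih => rw [Finset.sum_insert ha, Finset.prod_insert ha, chi_add, ih]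

theorem chi_comp (k : κ → ℤ) (B : κ → ι → ℤ) (z : ι → Circle) :
    chi k (fun i => chi (B i) z) = chi (∑ i, k i • B i) z := by
  rw [chi_sum, chi_apply]
  exact Finset.prod_congr rfl fun i _ => (chi_zsmul _ _ _).symm

theorem finite_circle_zpow_eq_one {m : ℤ} (hm : m ≠ 0) : {z : Circle | z ^ m = 1}.Finite := by
  have h0 : 0 < m.natAbs := Int.natAbs_pos.2 hm
  have h1 : {z : ℂ | z ^ m.natAbs = 1}.Finite := by
    have : {z : ℂ | z ^ m.natAbs = 1} ⊆ (Polynomial.nthRoots m.natAbs (1 : ℂ)).toFinset := by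
      intro z hz
      simpa [Polynomial.mem_nthRoots h0] using hz
    exact (Finset.finite_toSet _).subset this
  refine Set.Finite.of_finite_image (f := fun z : Circle => (z : ℂ)) (h1.subset ?_)
    (fun a _ b _ h => Circle.ext h)
  rintro _ ⟨z, hz, rfl⟩
  have hz' : z ^ m.natAbs = 1 := by
    rcases Int.natAbs_eq m with h | h
    · have : z ^ m = 1 := hz
      rw [h] at this
      exact_mod_cast this
    · have : z ^ m = 1 := hz
      rw [h, zpow_neg, inv_eq_one] at this
      exact_mod_cast this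
  show ((z : Circle) : ℂ) ^ m.natAbs = 1
  rw [← Circle.coe_pow, hz', Circle.coe_one]

theorem finiteIndex_ker_of_zpow {Γ : Type*} [Group Γ] (χ : Γ →* Circle) {m : ℤ} (hm : m ≠ 0)
    (h : ∀ g, χ g ^ m = 1) : χ.ker.FiniteIndex := by
  have : Finite χ.range := by
    refine (Set.Finite.subset (finite_circle_zpow_eq_one hm) ?_).to_subtype
    rintro _ ⟨g, rfl⟩
    exact h g
  exact Subgroup.finiteIndex_ker χ

/-- **T2.** For every homomorphism `φ` from a group to a torus `(S¹)^N` there is a finite index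
subgroup `Γ₂` and an injective monomial parametrisation `j(z) = (∏_a z_a^{B_{ia}})_i` of a subtorus,
with monomial left inverse, such that `φ|Γ₂ = j ∘ θ` with `θ : Γ₂ → (S¹)^s` of dense range. -/
theorem exists_torus_of_hom {Γ : Type*} [Group Γ] {N : ℕ} (φ : Γ →* (Fin N → Circle)) :
    ∃ (Γ₂ : Subgroup Γ), Γ₂.FiniteIndex ∧ Γ₂.Normal ∧
      ∃ (s : ℕ) (B : Fin N → Fin s → ℤ) (C : Fin s → Fin N → ℤ) (θ : Γ₂ →* (Fin s → Circle)),
        (∀ z : Fin s → Circle, ∀ a, chi (C a) (fun i => chi (B i) z) = z a) ∧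
        (∀ g : Γ₂, ∀ a, θ g a = chi (C a) (φ g)) ∧
        (∀ g : Γ₂, ∀ i, φ g i = chi (B i) (θ g)) ∧
        DenseRange θ := by
  classical
  -- saturated annihilator
  let A : Submodule ℤ (Fin N → ℤ) :=
    { carrier := {k | ∃ m : ℤ, m ≠ 0 ∧ ∀ g, chi k (φ g) ^ m = 1}
      zero_mem' := ⟨1, one_ne_zero, fun g => by simp [chi_zero]⟩
      add_mem' := by
        rintro k l ⟨m, hm, hk⟩ ⟨n, hn, hl⟩
        refine ⟨m * n, mul_ne_zero hm hn, fun g => ?_⟩
        rw [chi_add, mul_zpow, zpow_mul, hk, mul_comm m n, zpow_mul, hl]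
        simp
      smul_mem' := by
        rintro c k ⟨m, hm, hk⟩
        refine ⟨m, hm, fun g => ?_⟩
        rw [chi_zsmul, ← zpow_mul, mul_comm, zpow_mul, hk, one_zpow] }
  have hA : ∀ k, k ∈ A ↔ ∃ m : ℤ, m ≠ 0 ∧ ∀ g, chi k (φ g) ^ m = 1 := fun k => Iff.rfl
  -- quotient is free
  have htf : ∀ (c : ℤ) (x : (Fin N → ℤ) ⧸ A), c ≠ 0 → c • x = 0 → x = 0 := by
    intro c x hc hx
    obtain ⟨k, rfl⟩ := Submodule.Quotient.mk_surjective A x
    rw [← Submodule.Quotient.mk_smul, Submodule.Quotient.mk_eq_zero, hA] at hx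
    obtain ⟨m, hm, h⟩ := hx
    rw [Submodule.Quotient.mk_eq_zero, hA]
    refine ⟨c * m, mul_ne_zero hc hm, fun g => ?_⟩
    rw [zpow_mul, ← chi_zsmul]
    exact h g
  have : Module.IsTorsionFree ℤ ((Fin N → ℤ) ⧸ A) := by
    refine ⟨fun r hr m₁ m₂ h => ?_⟩
    have hr0 : r ≠ 0 := hr.ne_zero
    have h' : r • (m₁ - m₂) = 0 := by
      rw [smul_sub, sub_eq_zero]; exact h
    exact sub_eq_zero.1 (htf r _ hr0 h')
  have hfree : Module.Free ℤ ((Fin N → ℤ) ⧸ A) := Module.free_of_finite_type_torsion_free'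
  let s := Module.finrank ℤ ((Fin N → ℤ) ⧸ A)
  let e : ((Fin N → ℤ) ⧸ A) ≃ₗ[ℤ] (Fin s → ℤ) := (Module.finBasis ℤ _).equivFun
  let π : (Fin N → ℤ) →ₗ[ℤ] (Fin s → ℤ) := e.toLinearMap ∘ₗ A.mkQ
  have hπ : Function.Surjective π := e.surjective.comp (Submodule.mkQ_surjective A)
  have hπ0 : ∀ k, π k = 0 ↔ k ∈ A := by
    intro k
    show e (A.mkQ k) = 0 ↔ _
    rw [LinearEquiv.map_eq_zero_iff, Submodule.mkQ_apply, Submodule.Quotient.mk_eq_zero]
  choose C hC using fun a : Fin s => hπ (Pi.single a 1)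
  let B : Fin N → Fin s → ℤ := fun i => π (Pi.single i 1)
  have hπB : ∀ k : Fin N → ℤ, π k = ∑ i, k i • B i := by
    intro k
    conv_lhs => rw [pi_eq_sum_univ' k]
    rw [map_sum]
    refine Finset.sum_congr rfl fun i _ => ?_
    rw [map_smul]
  have hpres : ∀ k : Fin s → ℤ, π (∑ a, k a • C a) = k := by
    intro k
    rw [map_sum]
    simp only [map_smul, hC]
    ext b
    simp [Finset.sum_apply, Pi.single_apply]
  -- the finite index subgroup
  obtain ⟨S, hS⟩ := (IsNoetherian.noetherian A : A.FG)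
  let Γ₂ : Subgroup Γ := ⨅ k : S, ((chi (k : Fin N → ℤ)).comp φ).ker
  have hfin : Γ₂.FiniteIndex := by
    refine Subgroup.finiteIndex_iInf fun k => ?_
    have hk : (k : Fin N → ℤ) ∈ A := by rw [← hS]; exact Submodule.subset_span k.2
    obtain ⟨m, hm, h⟩ := (hA _).1 hk
    exact finiteIndex_ker_of_zpow _ hm h
  have hnormal : Γ₂.Normal := Subgroup.normal_iInf_normal fun k => MonoidHom.normal_ker _
  have htriv : ∀ k ∈ A, ∀ g ∈ Γ₂, chi k (φ g) = 1 := by
    intro k hk g hg
    rw [← hS] at hk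
    induction hk using Submodule.span_induction with
    | mem x hx => 
      have := (Subgroup.mem_iInf.1 hg) ⟨x, hx⟩
      exact this
    | zero => exact chi_zero _
    | add x y _ _ hx hy => rw [chi_add, hx, hy, one_mul]
    | smul c x _ hx => rw [chi_zsmul, hx, one_zpow]
  let θ : Γ₂ →* (Fin s → Circle) := 
    { toFun := fun g a => chi (C a) (φ g)
      map_one' := by ext a; simp
      map_mul' := fun g h => by ext a; simp }
  refine ⟨Γ₂, hfin, hnormal, s, B, C, θ, ?_, fun g a => rfl, ?_, ?_⟩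
  · intro z a
    rw [chi_comp, ← hπB, hC, chi_single]
  · intro g i
    show φ g i = chi (B i) (fun a => chi (C a) (φ g))
    rw [chi_comp, ← chi_single i (φ g)]
    have hmem : (Pi.single i 1 : Fin N → ℤ) - ∑ a, B i a • C a ∈ A := by
      rw [← hπ0, map_sub, hpres, sub_self]
    have := htriv _ hmem g g.2
    rw [chi_sub, div_eq_one] at this
    exact this
  · have hd : Dense ((θ.range : Subgroup (Fin s → Circle)) : Set (Fin s → Circle)) := by
      apply dense_of_annihilator_trivial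
      intro k hk
      rw [← hpres k, hπ0, hA]
      refine ⟨(Γ₂.index : ℤ), by exact_mod_cast hfin.index_ne_zero, fun g => ?_⟩
      have hg : g ^ Γ₂.index ∈ Γ₂ := Subgroup.pow_index_mem Γ₂ g
      have := hk (θ ⟨_, hg⟩) ⟨_, rfl⟩
      have h2 : chi k (fun a => chi (C a) (φ (g ^ Γ₂.index))) = 1 := this
      rw [chi_comp, map_pow, map_pow] at h2
      exact_mod_cast h2
    rw [MonoidHom.coe_range] at hd
    exact hd

end

end Vale.Agent.P299.H996
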