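import Vale.Agent.P299.H996.TorusRep

/-!
# T2 with the universal cover `ℝ^s` of the torus; commuting unitary matrices; compact abelian groups
-/

namespace Vale.Agent.P299.H996

open Topology Set Module

noncomputable section

/-- the exponential `ℝ^s → (S¹)^s` -/
def expT {s : ℕ} (t : Fin s → ℝ) : Fin s → Circle := fun a => Circle.exp (2 * Real.pi * t a)

theorem expT_add {s : ℕ} (t t' : Fin s → ℝ) : expT (t + t') = expT t * expT t' := by
  ext1 a
  simp [expT, mul_add, Circle.exp_add]

theorem expT_int {s : ℕ} (k : Fin s → ℤ) : expT (fun a => (k a : ℝ)) = 1 := by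
  ext1 a
  simp only [expT, Pi.one_apply]
  rw [mul_comm]
  exact Circle.exp_int_mul_two_pi (k a)

theorem continuous_expT {s : ℕ} : Continuous (expT (s := s)) :=
  continuous_pi fun a => Circle.exp.continuous.comp (continuous_const.mul (continuous_apply a))

theorem expT_surjective {s : ℕ} : Function.Surjective (expT (s := s)) := by
  intro z
  have h : ∀ a, ∃ t : ℝ, Circle.exp (2 * Real.pi * t) = z a := by
    intro a
    obtain ⟨x, hx⟩ := Circle.exp_surjective (z a)
    refine ⟨x / (2 * Real.pi), ?_⟩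
    rw [mul_div_cancel₀ _ Real.two_pi_pos.ne']
    exact hx
  choose t ht using h
  exact ⟨t, funext ht⟩

/-- **T2, real form.** -/
theorem exists_real_torus {Γ : Type*} [Group Γ] {N : ℕ} (φ : Γ →* (Fin N → Circle)) :
    ∃ (Γ₂ : Subgroup Γ), Γ₂.FiniteIndex ∧ ∃ (s : ℕ) (j : (Fin s → ℝ) → (Fin N → Circle)),
      Continuous j ∧ (∀ t t', j (t + t') = j t * j t') ∧
      (∀ k : Fin s → ℤ, j (fun a => (k a : ℝ)) = 1) ∧
      (∀ g ∈ Γ₂, ∃ t, φ g = j t) ∧ range j = closure (φ '' Γ₂) := by
  obtain ⟨Γ₂, hΓ₂, -, s, B, C, θ, h1, h2, h3, h4⟩ := exists_torus_of_hom φ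
  let J : (Fin s → Circle) → (Fin N → Circle) := fun z i => chi (B i) z
  have hJ : Continuous J := continuous_pi fun i => continuous_chi (B i)
  have hmem : ∀ g ∈ Γ₂, ∃ t, φ g = J (expT t) := by
    intro g hg
    obtain ⟨t, ht⟩ := expT_surjective (θ ⟨g, hg⟩)
    refine ⟨t, ?_⟩
    rw [ht]
    exact funext fun i => h3 ⟨g, hg⟩ i
  refine ⟨Γ₂, hΓ₂, s, fun t => J (expT t), hJ.comp continuous_expT, ?_, ?_, hmem, ?_⟩
  · intro t t'
    ext1 i
    simp [J, expT_add]
  · intro k
    ext1 i
    simp [J, expT_int]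
  · have hr : range (fun t : Fin s → ℝ => J (expT t)) = range J := by
      have := expT_surjective (s := s)
      exact this.range_comp J
    rw [hr]
    apply Subset.antisymm
    · have h5 : range J ⊆ closure (J '' range θ) := by
        have := h4
        rintro _ ⟨z, rfl⟩
        exact image_closure_subset_closure_image hJ ⟨z, h4 z, rfl⟩
      refine h5.trans (closure_mono ?_)
      rintro _ ⟨_, ⟨g, rfl⟩, rfl⟩
      exact ⟨g, g.2, funext fun i => h3 g i⟩
    · refine closure_minimal ?_ (isCompact_range hJ).isClosed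
      rintro _ ⟨g, hg, rfl⟩
      exact ⟨θ ⟨g, hg⟩, (funext fun i => h3 ⟨g, hg⟩ i).symm⟩

/-- the unitary operator on `EuclideanSpace` given by a unitary matrix -/
def matU {N : ℕ} (A : Matrix.unitaryGroup (Fin N) ℂ) :
    EuclideanSpace ℂ (Fin N) ≃ₗᵢ[ℂ] EuclideanSpace ℂ (Fin N) :=
  Unitary.linearIsometryEquiv ⟨Matrix.toEuclideanCLM (n := Fin N) (𝕜 := ℂ) A,
    Unitary.map_mem (Matrix.toEuclideanCLM (n := Fin N) (𝕜 := ℂ)) A.2⟩

theorem matU_apply {N : ℕ} (A : Matrix.unitaryGroup (Fin N) ℂ) (v : EuclideanSpace ℂ (Fin N)) :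
    matU A v = WithLp.toLp 2 ((A : Matrix (Fin N) (Fin N) ℂ).mulVec v.ofLp) := by
  rfl

theorem matU_mul {N : ℕ} (A B : Matrix.unitaryGroup (Fin N) ℂ) (v : EuclideanSpace ℂ (Fin N)) :
    matU (A * B) v = matU A (matU B v) := by
  simp [matU_apply, Matrix.mulVec_mulVec]

/-- **Commuting unitary matrices are simultaneously diagonal.** A homomorphism from a commutative
group to `U(N)` is conjugate to a homomorphism into the diagonal torus. -/
theorem exists_diagonal {K : Type*} [CommGroup K] {N : ℕ}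
    (φ : K →* Matrix.unitaryGroup (Fin N) ℂ) :
    ∃ (P : Matrix.unitaryGroup (Fin N) ℂ) (ψ : K →* (Fin N → Circle)),
      (∀ k, (φ k : Matrix (Fin N) (Fin N) ℂ) =
        (P : Matrix (Fin N) (Fin N) ℂ) * Matrix.diagonal (fun i => (ψ k i : ℂ)) *
          star (P : Matrix (Fin N) (Fin N) ℂ)) ∧
      (∀ [TopologicalSpace K], Continuous φ → Continuous ψ) ∧
      (Function.Injective φ → Function.Injective ψ) := by
  have hN : finrank ℂ (EuclideanSpace ℂ (Fin N)) = N := by simp
  obtain ⟨b', hb'⟩ := exists_orthonormalBasis_common (fun k : K => matU (φ k)) (fun k l x => by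
    rw [← matU_mul, ← matU_mul, ← map_mul, ← map_mul, mul_comm])
  let b : OrthonormalBasis (Fin N) ℂ (EuclideanSpace ℂ (Fin N)) := b'.reindex (finCongr hN)
  have hb : ∀ k i, ∃ c : Circle, matU (φ k) (b i) = (c : ℂ) • b i := by
    intro k i
    obtain ⟨c, hc⟩ := hb' k ((finCongr hN).symm i)
    have hbi : b i = b' ((finCongr hN).symm i) := by simp [b]
    rw [← hbi] at hc
    have : ‖c‖ = 1 := by
      have h1 := congrArg norm hc
      rw [norm_smul, LinearIsometryEquiv.norm_map, b.norm_eq_one, mul_one] at h1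
      exact h1.symm
    exact ⟨⟨c, mem_sphere_zero_iff_norm.2 this⟩, hc⟩
  choose c hc using hb
  let ψ : K →* (Fin N → Circle) := MonoidHom.mk' c (fun k l => by
    ext1 i
    apply Circle.ext
    have h1 : matU (φ (k * l)) (b i) = ((c k i : ℂ) * (c l i : ℂ)) • b i := by
      rw [map_mul, matU_mul, hc l i, map_smul, hc k i, smul_smul, mul_comm]
    rw [hc] at h1
    exact smul_left_injective ℂ (b.orthonormal.ne_zero i) h1)
  have hψ : ∀ k i, ψ k i = c k i := fun k i => rfl
  let Pm : Matrix (Fin N) (Fin N) ℂ := Matrix.of fun i j => (b j).ofLp i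
  have hP : star Pm * Pm = 1 := by
    ext i j
    rw [Matrix.mul_apply]
    have h1 : inner ℂ (b i) (b j) = ∑ k, (star Pm) i k * Pm k j := by
      rw [PiLp.inner_apply]
      refine Finset.sum_congr rfl fun k _ => ?_
      simp [Pm, Matrix.star_apply, mul_comm]
    rw [← h1, b.inner_eq_ite, Matrix.one_apply]
  have key : ∀ k : K, (φ k : Matrix (Fin N) (Fin N) ℂ) =
      Pm * Matrix.diagonal (fun i => (ψ k i : ℂ)) * star Pm := by
    intro k
    have h1 : (φ k : Matrix (Fin N) (Fin N) ℂ) * Pm =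
        Pm * Matrix.diagonal (fun i => (ψ k i : ℂ)) := by
      ext i j
      have h2 := congrArg (fun v : EuclideanSpace ℂ (Fin N) => v.ofLp i) (hc k j)
      simp only [matU_apply] at h2
      rw [Matrix.mul_diagonal]
      rw [Matrix.mul_apply]
      rw [Matrix.mulVec, dotProduct] at h2
      show _ = (b j).ofLp i * (c k j : ℂ)
      rw [mul_comm]
      exact h2
    rw [← h1, mul_assoc]
    have h3 : Pm * star Pm = 1 := mul_eq_one_comm.1 hP
    rw [h3, mul_one]
  refine ⟨⟨Pm, Matrix.mem_unitaryGroup_iff'.2 hP⟩, ψ, key, ?_, ?_⟩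
  · intro _ hφ
    refine continuous_pi fun i => ?_
    have h1 : ∀ k, ((ψ k i : Circle) : ℂ) = inner ℂ (b i) (matU (φ k) (b i)) := by
      intro k
      rw [hc k i, inner_smul_right, b.inner_eq_one, mul_one, hψ]
    refine continuous_induced_rng.2 ?_
    show Continuous fun k => ((ψ k i : Circle) : ℂ)
    simp only [h1]
    refine continuous_const.inner ?_
    simp only [matU_apply]
    refine (PiLp.continuous_toLp 2 _).comp ?_
    exact (Continuous.matrix_mulVec (continuous_subtype_val.comp hφ) continuous_const)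
  · intro hinj k l hkl
    apply hinj
    apply Subtype.ext
    rw [key k, key l, hkl]

/-- **Torus in a compact abelian linear group.** Let `K` be a compact abelian group with an
injective continuous homomorphism to `U(N)`, and let `ι : G → K` be a homomorphism.  Then a finite
index subgroup of `G` lies in the image of a continuous homomorphism `ℝ^s/ℤ^s → K`. -/
theorem exists_real_torus_compact {G K : Type*} [Group G] [CommGroup K] [TopologicalSpace K]
    [CompactSpace K] {N : ℕ} (φ : K →* Matrix.unitaryGroup (Fin N) ℂ) (hφ : Continuous φ)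
    (hinj : Function.Injective φ) (ι : G →* K) :
    ∃ (G' : Subgroup G), G'.FiniteIndex ∧ ∃ (s : ℕ) (j : (Fin s → ℝ) → K),
      Continuous j ∧ (∀ t t', j (t + t') = j t * j t') ∧
      (∀ k : Fin s → ℤ, j (fun a => (k a : ℝ)) = 1) ∧
      (∀ g ∈ G', ∃ t, ι g = j t) ∧ range j = closure (ι '' G') := by
  obtain ⟨P, ψ, -, hψc, hψi⟩ := exists_diagonal φ
  have hc := hψc hφ
  have hi := hψi hinj
  have hemb : IsClosedEmbedding ψ := hc.isClosedEmbedding hi
  obtain ⟨G', hG', s, j, h1, h2, h3, h4, h5⟩ := exists_real_torus (ψ.comp ι)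
  have hsub : closure ((ψ.comp ι) '' G') ⊆ range ψ := by
    refine closure_minimal ?_ hemb.isClosed_range
    rintro _ ⟨g, -, rfl⟩
    exact ⟨ι g, rfl⟩
  have hj : ∀ t, ∃ k, ψ k = j t := fun t => hsub (h5 ▸ ⟨t, rfl⟩)
  choose J hJ using hj
  have hJc : Continuous J := by
    rw [hemb.isInducing.continuous_iff]
    have : ψ ∘ J = j := funext hJ
    rw [this]
    exact h1
  refine ⟨G', hG', s, J, hJc, ?_, ?_, ?_, ?_⟩
  · intro t t'
    apply hi
    rw [map_mul, hJ, hJ, hJ, h2]
  · intro k
    apply hi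
    rw [hJ, h3, map_one]
  · intro g hg
    obtain ⟨t, ht⟩ := h4 g hg
    exact ⟨t, hi (by rw [hJ, ← ht]; rfl)⟩
  · have e1 : ψ '' (range J) = ψ '' (closure (ι '' G')) := by
      rw [← range_comp, show ψ ∘ J = j from funext hJ, h5,
        ← hemb.isClosedMap.closure_image_eq_of_continuous hc, ← image_comp]
      rfl
    exact hi.image_injective e1

end

end Vale.Agent.P299.H996
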