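import Vale.Agent.P299.H996.Diag

/-!
# Projective unitary representations of abelian groups come from a torus on a finite index subgroup
-/

namespace Vale.Agent.P299.H996

open Topology Set Module

noncomputable section

variable {V : Type*} [NormedAddCommGroup V] [InnerProductSpace ℂ V] [FiniteDimensional ℂ V]

/-- **T1 + T2.** Let `U` be a projective unitary representation of an abelian group `Γ` on a finite
dimensional Hilbert space `V`.  Then there are a finite index subgroup `Γ₂`, an orthonormal basis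
`b` of `V`, a compact torus `(S¹)^s` acting diagonally on `V` by the monomials `chi (B i)`,
effectively on the projective space, and a homomorphism `θ : Γ₂ → (S¹)^s` of dense range such that
`U g` is a unit scalar multiple of the action of `θ g` for every `g ∈ Γ₂`. -/
theorem exists_torus_of_projRep {Γ : Type*} [CommGroup Γ] (U : Γ → V ≃ₗᵢ[ℂ] V)
    (hU : ∀ g h, ∃ c : ℂ, ∀ v, U g (U h v) = c • U (g * h) v) :
    ∃ (Γ₂ : Subgroup Γ), Γ₂.FiniteIndex ∧
      ∃ (b : OrthonormalBasis (Fin (finrank ℂ V)) ℂ V) (s : ℕ)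
        (B : Fin (finrank ℂ V) → Fin s → ℤ) (θ : Γ₂ →* (Fin s → Circle)),
        DenseRange θ ∧
        (∀ z : Fin s → Circle, (∃ c : Circle, ∀ i, chi (B i) z = c) → z = 1) ∧
        (∀ g : Γ₂, ∃ c : Circle, ∀ v, U g v = (c : ℂ) • diagU b (fun i => chi (B i) (θ g)) v) := by
  obtain ⟨Γ₁, hΓ₁, hcomm⟩ := exists_finiteIndex_commuting U hU
  obtain ⟨b, hb⟩ := exists_orthonormalBasis_common (fun g : Γ₁ => U g)
    (fun g h v => hcomm g g.2 h v)
  have hb' : ∀ (g : Γ₁) i, ∃ c : Circle, U g (b i) = (c : ℂ) • b i := by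
    intro g i
    obtain ⟨c, hc⟩ := hb g i
    have : ‖c‖ = 1 := by
      have h1 := congrArg norm hc
      rw [norm_smul, LinearIsometryEquiv.norm_map, b.norm_eq_one, mul_one] at h1
      exact h1.symm
    exact ⟨⟨c, mem_sphere_zero_iff_norm.2 this⟩, hc⟩
  choose c hc using hb'
  rcases isEmpty_or_nonempty (Fin (finrank ℂ V)) with hE | ⟨⟨i₀⟩⟩
  · have hV : Subsingleton V := by
      have h0 : finrank ℂ V = 0 := by
        by_contra h
        exact hE.false ⟨0, Nat.pos_of_ne_zero h⟩
      exact finrank_zero_iff.1 h0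
    refine ⟨⊤, inferInstance, b, 0, fun _ => 0, 1, ?_, ?_, ?_⟩
    · intro x
      have : x = (1 : (⊤ : Subgroup Γ) →* (Fin 0 → Circle)) 1 := Subsingleton.elim _ _
      rw [this]
      exact subset_closure ⟨1, rfl⟩
    · intro z _
      exact Subsingleton.elim _ _
    · intro g
      exact ⟨1, fun v => Subsingleton.elim _ _⟩
  -- the cocycle
  have hcoc : ∀ g h : Γ₁, ∃ d : Circle, ∀ i, c g i * c h i = d * c (g * h) i := by
    intro g h
    obtain ⟨d, hd⟩ := hU g h
    have h1 : ∀ i, ((c g i * c h i : Circle) : ℂ) = d * (c (g * h) i : ℂ) := by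
      intro i
      have h2 := hd (b i)
      have h3 : U ((g : Γ) * (h : Γ)) (b i) = (c (g * h) i : ℂ) • b i := hc (g * h) i
      rw [hc h i, map_smul, hc g i, h3, smul_smul, smul_smul] at h2
      have h4 := smul_left_injective ℂ (b.orthonormal.ne_zero i) h2
      rw [Circle.coe_mul, mul_comm]
      exact h4
    have hd1 : ‖d‖ = 1 := by
      have h5 := congrArg norm (h1 i₀)
      rw [norm_mul, Circle.norm_coe, Circle.norm_coe, mul_one] at h5
      exact h5.symm
    refine ⟨⟨d, mem_sphere_zero_iff_norm.2 hd1⟩, fun i => Circle.ext ?_⟩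
    rw [h1 i]; rfl
  -- normalising scalar
  have hmulφ : ∀ g h : Γ₁, ∀ i, c (g * h) i / c (g * h) i₀ =
      (c g i / c g i₀) * (c h i / c h i₀) := by
    intro g h i
    obtain ⟨d, hd⟩ := hcoc g h
    have h1 := hd i
    have h2 := hd i₀
    rw [div_mul_div_comm, h1, h2, mul_div_mul_left_eq_div]
  let φ : Γ₁ →* (Fin (finrank ℂ V) → Circle) := MonoidHom.mk' (fun g i => c g i / c g i₀)
    fun g h => funext fun i => hmulφ g h i
  have hφ : ∀ g i, φ g i = c g i / c g i₀ := fun g i => rfl
  obtain ⟨Γ₂, hΓ₂, -, s, B, C, θ, h1, h2, h3, h4⟩ := exists_torus_of_hom φ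
  let e := Γ₂.equivMapOfInjective Γ₁.subtype Γ₁.subtype_injective
  refine ⟨Γ₂.map Γ₁.subtype, ?_, b, s, B, θ.comp e.symm.toMonoidHom, ?_, ?_, ?_⟩
  · exact ⟨by
      rw [Subgroup.index_map_subtype]
      exact mul_ne_zero hΓ₂.index_ne_zero hΓ₁.index_ne_zero⟩
  · intro x
    have hr : range (θ.comp e.symm.toMonoidHom) = range θ := by
      ext y
      constructor
      · rintro ⟨g, rfl⟩
        exact ⟨_, rfl⟩
      · rintro ⟨g, rfl⟩
        exact ⟨e g, by simp⟩
    rw [hr]
    exact h4 x
  · rintro z ⟨c', hc'⟩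
    have hB : ∀ z, chi (B i₀) z = 1 := by
      intro z
      have : (fun z => chi (B i₀) z) = fun _ => (1 : Circle) := by
        refine h4.equalizer (continuous_chi _) continuous_const ?_
        ext g
        simp only [Function.comp]
        rw [← h3 g i₀, hφ, div_self']
      exact congrFun this z
    have hc1 : ∀ i, chi (B i) z = 1 := by
      intro i
      rw [hc' i, ← hc' i₀, hB]
    ext1 a
    rw [← h1 z a]
    simp only [hc1]
    exact map_one _
  · intro g
    obtain ⟨g', rfl⟩ := e.surjective g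
    refine ⟨c g' i₀, fun v => ?_⟩
    have hlin : (U ((e g' : Γ₂.map Γ₁.subtype) : Γ)).toLinearEquiv.toLinearMap =
        (c g' i₀ : ℂ) • (diagU b fun i => chi (B i) (θ g')).toLinearEquiv.toLinearMap := by
      refine linearMap_ext_basis b fun i => ?_
      show U ((g' : Γ₁) : Γ) (b i) = (c g' i₀ : ℂ) • diagU b (fun i => chi (B i) (θ g')) (b i)
      rw [diagU_basis, hc, smul_smul, ← h3, hφ, ← Circle.coe_mul, mul_div_cancel]
    have := LinearMap.congr_fun hlin v
    simpa using this

end

end Vale.Agent.P299.H996
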